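import Vale.Agent.Lib.P240.Hyper

namespace Vale.Agent.Results.P240.Hyperelementary

open Vale.Agent.Lib.P240

/-- Fixed point theorem. Let `G` be finite, `q` a prime, `g` in `G` and `T` a subgroup of `G` that
normalizes the cyclic group generated by `g` and such that each element of `T` has a `q`-power
power in that cyclic group (so `T` is a `q`-hyperelementary subgroup when `g` lies in `T`).
If `T` normalizes no member of `A_p(G)`, then the reduced rational homology of the order complex
of `A_p(G)` does not vanish. -/
theorem result {G : Type*} [Group G] [Finite G] (p q : ℕ) [Fact q.Prime] (g : G) (T : Subgroup G)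
    (hT : ∀ t ∈ T, t⁻¹ * g * t ∈ Subgroup.zpowers g)
    (hq : ∀ t ∈ T, ∃ k : ℕ, t ^ q ^ k ∈ Subgroup.zpowers g)
    (hfree : ∀ E : Subgroup G, IsElemAb p E → ¬ T ≤ Subgroup.normalizer (E : Set G)) :
    ¬ ReducedHomologyVanishes p G :=
  homology_ne_of_hyperelementary p q g T hT hq hfree

end Vale.Agent.Results.P240.Hyperelementary
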