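import Vale.Agent.Lib.P240.PSLTwoMain

namespace Vale.Agent.Results.P240.PSLTwoProducts

open Vale.Agent.Lib.P240
open scoped MatrixGroups

/-- Let `p ≠ r` be primes and `F i` finitely many finite fields of characteristic `r`, each with at
least four elements. Let `G` be a finite group with normal subgroups `K`, isomorphic to the product
of the groups `PSL(2, F i)`, and `R`, an `r`-group. If the only element `x` of `G` with `x ^ p = 1`
centralizing both `R` and `K` is the identity, then the reduced rational homology of the order
complex of `A_p(G)` does not vanish. -/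
theorem result {p r : ℕ} [Fact p.Prime] [Fact r.Prime] (hpr : p ≠ r)
    {G : Type*} [Group G] [Finite G]
    {ι : Type*} [Fintype ι] {F : ι → Type*} [∀ i, Field (F i)] [∀ i, Finite (F i)]
    [∀ i, CharP (F i) r] (hF : ∀ i, 4 ≤ Nat.card (F i))
    (K : Subgroup G) [K.Normal] (e : K ≃* ∀ i, PSL(2, F i))
    (R : Subgroup G) [R.Normal] (hR : IsPGroup r R)
    (hcen : ∀ x : G, x ^ p = 1 → (∀ y ∈ R, x * y = y * x) → (∀ k ∈ K, x * k = k * x) → x = 1) :
    ¬ ReducedHomologyVanishes p G :=
  homology_ne_of_psl_two hpr hF K e R hR hcen

end Vale.Agent.Results.P240.PSLTwoProducts
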