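import Vale.Agent.Lib.P240.Perm

namespace Vale.Agent.Results.P240.PermutationPieces

open Vale.Agent.Lib.P240

/-- Let `G` be a finite group acting on a finite set `Ω`, and `T` a subgroup normalizing the cyclic
group generated by `g`, each of whose elements has a `q`-power power in that group (`q` prime). Let
`Y i` be subgroups of `T` and `S i` pairwise disjoint subsets of `Ω` of size at least two and prime
to `p` such that `Y i` is transitive on `S i` and fixes all points outside `S i`. Suppose that if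
some point lies outside all the `S i` then no `|S i| + 1` is a power of `p`, and that the only `x`
in `G` with `x ^ p = 1` fixing all `S i` pointwise is the identity. Then the reduced rational
homology of the order complex of `A_p(G)` does not vanish. -/
theorem result {G : Type*} [Group G] [Finite G] {Ω : Type*} [MulAction G Ω] [Finite Ω]
    (p q : ℕ) [Fact p.Prime] [Fact q.Prime] (g : G) (T : Subgroup G)
    (hT : ∀ t ∈ T, t⁻¹ * g * t ∈ Subgroup.zpowers g)
    (hq : ∀ t ∈ T, ∃ k : ℕ, t ^ q ^ k ∈ Subgroup.zpowers g)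
    {I : Type*} (S : I → Set Ω) (Y : I → Subgroup G) (hYT : ∀ i, Y i ≤ T)
    (htrans : ∀ i, ∀ x ∈ S i, ∀ x' ∈ S i, ∃ y ∈ Y i, y • x = x')
    (hsupp : ∀ i, ∀ y ∈ Y i, ∀ x, x ∉ S i → y • x = x)
    (hdisj : Pairwise (Function.onFun Disjoint S))
    (htwo : ∀ i, 2 ≤ (S i).ncard) (hp : ∀ i, ¬ p ∣ (S i).ncard)
    (hout : ∀ ω : Ω, (∀ i, ω ∉ S i) → ∀ i b, (S i).ncard + 1 ≠ p ^ b)
    (hcen : ∀ x : G, x ^ p = 1 → (∀ i, ∀ ω ∈ S i, x • ω = ω) → x = 1) :
    ¬ ReducedHomologyVanishes p G :=
  homology_ne_of_pieces p q g T hT hq S Y hYT htrans hsupp hdisj htwo hp hout hcen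

end Vale.Agent.Results.P240.PermutationPieces
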