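import Vale.Agent.Results.P240.Components
import Vale.Agent.Results.P240.Hyperelementary
import Vale.Agent.Results.P240.PSLTwoProducts
import Vale.Agent.Results.P240.PermutationPieces

namespace Vale.Agent.Results.P240.A0Conj

open Vale.Agent.Lib.P240
open scoped MatrixGroups

universe u v w

open scoped Classical in
/-- The four criteria for the nonvanishing of the reduced rational homology of `A_p(G)`, together:
the hyperelementary fixed point theorem, the permutation pieces criterion, the products of `PSL(2, F)`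
criterion and the components criterion with its rank one supply of `p`-free subgroups. -/
theorem result :
    (∀ {G : Type u} [Group G] [Finite G] (p q : ℕ) [Fact q.Prime] (g : G) (T : Subgroup G)
      (_ : ∀ t ∈ T, t⁻¹ * g * t ∈ Subgroup.zpowers g)
      (_ : ∀ t ∈ T, ∃ k : ℕ, t ^ q ^ k ∈ Subgroup.zpowers g)
      (_ : ∀ E : Subgroup G, IsElemAb p E → ¬ T ≤ Subgroup.normalizer (E : Set G)),
      ¬ ReducedHomologyVanishes p G) ∧
    (∀ {G : Type u} [Group G] [Finite G] {Ω : Type v} [MulAction G Ω] [Finite Ω]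
      (p q : ℕ) [Fact p.Prime] [Fact q.Prime] (g : G) (T : Subgroup G)
      (_ : ∀ t ∈ T, t⁻¹ * g * t ∈ Subgroup.zpowers g)
      (_ : ∀ t ∈ T, ∃ k : ℕ, t ^ q ^ k ∈ Subgroup.zpowers g)
      {I : Type w} (S : I → Set Ω) (Y : I → Subgroup G) (_ : ∀ i, Y i ≤ T)
      (_ : ∀ i, ∀ x ∈ S i, ∀ x' ∈ S i, ∃ y ∈ Y i, y • x = x')
      (_ : ∀ i, ∀ y ∈ Y i, ∀ x, x ∉ S i → y • x = x)
      (_ : Pairwise (Function.onFun Disjoint S))
      (_ : ∀ i, 2 ≤ (S i).ncard) (_ : ∀ i, ¬ p ∣ (S i).ncard)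
      (_ : ∀ ω : Ω, (∀ i, ω ∉ S i) → ∀ i b, (S i).ncard + 1 ≠ p ^ b)
      (_ : ∀ x : G, x ^ p = 1 → (∀ i, ∀ ω ∈ S i, x • ω = ω) → x = 1),
      ¬ ReducedHomologyVanishes p G) ∧
    (∀ {p r : ℕ} [Fact p.Prime] [Fact r.Prime] (_ : p ≠ r)
      {G : Type u} [Group G] [Finite G]
      {ι : Type v} [Fintype ι] {F : ι → Type w} [∀ i, Field (F i)] [∀ i, Finite (F i)]
      [∀ i, CharP (F i) r] (_ : ∀ i, 4 ≤ Nat.card (F i))
      (K : Subgroup G) [K.Normal] (_ : K ≃* ∀ i, PSL(2, F i))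
      (R : Subgroup G) [R.Normal] (_ : IsPGroup r R)
      (_ : ∀ x : G, x ^ p = 1 → (∀ y ∈ R, x * y = y * x) → (∀ k ∈ K, x * k = k * x) → x = 1),
      ¬ ReducedHomologyVanishes p G) ∧
    (∀ {G : Type u} [Group G] [Finite G] {p q : ℕ} [Fact p.Prime] [Fact q.Prime]
      (_ : p ≠ q),
      (∀ {ι : Type v} [Fintype ι] {A : ι → Type w} [∀ i, Group (A i)] [∀ i, IsSimpleGroup (A i)]
        (U : ∀ i, Subgroup (A i)) (_ : ∀ i, U i ≠ ⊥) (_ : ∀ i, FreeSubgroup p (A i) (U i))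
        (K : Subgroup G) [K.Normal] (e : K ≃* ∀ i, A i)
        (R : Subgroup G) [R.Normal] (_ : IsPGroup q R)
        (g : G) (Q : Subgroup G) (_ : IsPGroup q Q) (_ : Q ≤ Subgroup.centralizer ({g} : Set G))
        (_ : R ≤ Q)
        (_ : ∀ i, ∀ u ∈ U i, ((e.symm (Pi.mulSingle i u) : K) : G) ∈ Q ⊔ Subgroup.zpowers g)
        (_ : ∀ x : G, x ^ p = 1 → (∀ r ∈ R, x * r = r * x) → (∀ k ∈ K, x * k = k * x) → x = 1),
        ¬ ReducedHomologyVanishes p G) ∧
      (∀ {L : Type v} {X : Type w} [Group L] [MulAction L X] [IsSimpleGroup L] [FaithfulSMul L X]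
        [MulAction.IsPretransitive L X] {r : ℕ} [Fact r.Prime] (_ : p ≠ r) {x₀ : X}
        {U : Subgroup L}, IsRankOneData r x₀ U → FreeSubgroup p L U)) :=
  ⟨@Vale.Agent.Results.P240.Hyperelementary.result, @Vale.Agent.Results.P240.PermutationPieces.result,
    @Vale.Agent.Results.P240.PSLTwoProducts.result, @Vale.Agent.Results.P240.Components.result⟩

end Vale.Agent.Results.P240.A0Conj
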