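import Vale.Agent.Lib.P240.PSLTwoMain

namespace Vale.Agent.Results.P240.Components

open Vale.Agent.Lib.P240

universe u v w

open scoped Classical in
/-- Let `p ≠ q` be primes and `G` a finite group.

First part: let `K` be a normal subgroup isomorphic to a finite product of simple groups `A i`, let
`R` be a normal `q`-subgroup, `Q` a `q`-subgroup containing `R` and commuting with an element `g`,
and `U i` nontrivial subgroups of `A i` that are `p`-free, whose copies in `K` lie in the subgroup
generated by `Q` and `g`. If the only `x` with `x ^ p = 1` centralizing `R` and `K` is the identity,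
the reduced rational homology of the order complex of `A_p(G)` does not vanish.

Second part: a simple group acting faithfully and transitively on a set, with an `r`-subgroup `U`
fixing a point, normal in its stabilizer and regular on the other points (at least two), has `U`
`p`-free for every prime `p ≠ r`. -/
theorem result {G : Type u} [Group G] [Finite G] {p q : ℕ} [Fact p.Prime] [Fact q.Prime]
    (hpq : p ≠ q) :
    (∀ {ι : Type v} [Fintype ι] {A : ι → Type w} [∀ i, Group (A i)] [∀ i, IsSimpleGroup (A i)]
      (U : ∀ i, Subgroup (A i)) (_ : ∀ i, U i ≠ ⊥) (_ : ∀ i, FreeSubgroup p (A i) (U i))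
      (K : Subgroup G) [K.Normal] (e : K ≃* ∀ i, A i)
      (R : Subgroup G) [R.Normal] (_ : IsPGroup q R)
      (g : G) (Q : Subgroup G) (_ : IsPGroup q Q) (_ : Q ≤ Subgroup.centralizer ({g} : Set G))
      (_ : R ≤ Q)
      (_ : ∀ i, ∀ u ∈ U i, ((e.symm (Pi.mulSingle i u) : K) : G) ∈ Q ⊔ Subgroup.zpowers g)
      (_ : ∀ x : G, x ^ p = 1 → (∀ r ∈ R, x * r = r * x) → (∀ k ∈ K, x * k = k * x) → x = 1),
      ¬ ReducedHomologyVanishes p G) ∧
    (∀ {L : Type v} {X : Type w} [Group L] [MulAction L X] [IsSimpleGroup L] [FaithfulSMul L X]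
      [MulAction.IsPretransitive L X] {r : ℕ} [Fact r.Prime] (_ : p ≠ r) {x₀ : X}
      {U : Subgroup L}, IsRankOneData r x₀ U → FreeSubgroup p L U) := by
  refine ⟨?_, ?_⟩
  · intro ι _ A _ _ U hU0 hU K _ e R _ hR g Q hQ hgQ hRQ hUY hcen
    exact homology_ne_of_components_general hpq U hU0 hU K e R hR g Q hQ hgQ hRQ hUY hcen
  · intro L X _ _ _ _ _ r _ hpr x₀ U hd
    exact freeSubgroup_of_rankOne hpr hd

end Vale.Agent.Results.P240.Components
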